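import Mathlib

/-!
# P335 : the slice lemma

For a mean zero function on the slice `{x : J → Bool, a ones}` the mean values on the sets
`{x w ≠ x z}` are controlled by the transposition energy.
-/

set_option linter.unusedSectionVars false

open Finset

namespace Vale.Agent.Lib.P335F

namespace Slice

variable {J : Type} [Fintype J] [DecidableEq J]

/-- the slice -/
def sl (J : Type) [Fintype J] [DecidableEq J] (a : ℕ) : Finset (J → Bool) :=
  univ.filter (fun x => ∑ j, (x j).toNat = a)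

/-- real value of a bit -/
def bt (x : J → Bool) (w : J) : ℝ := if x w then 1 else 0

theorem bt_sq (x : J → Bool) (w : J) : bt x w ^ 2 = bt x w := by
  unfold bt; split_ifs <;> norm_num

theorem bt_comp (x : J → Bool) (σ : Equiv.Perm J) (w : J) : bt (x ∘ σ) w = bt x (σ w) := rfl

theorem sum_bt {a : ℕ} {x : J → Bool} (hx : x ∈ sl J a) : ∑ w, bt x w = a := by
  unfold sl at hx
  rw [mem_filter] at hx
  rw [← hx.2]
  push_cast
  apply sum_congr rfl
  intro w _
  unfold bt
  cases x w <;> simp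

theorem comp_mem {a : ℕ} {x : J → Bool} (σ : Equiv.Perm J) (hx : x ∈ sl J a) :
    x ∘ σ ∈ sl J a := by
  unfold sl at *
  rw [mem_filter] at *
  refine ⟨mem_univ _, ?_⟩
  rw [← hx.2]
  exact Equiv.sum_comp σ (fun w => (x w).toNat)

/-- sums over the slice are invariant -/
theorem sum_comp {a : ℕ} (p q : J) (h : (J → Bool) → ℝ) :
    ∑ x ∈ sl J a, h (x ∘ Equiv.swap p q) = ∑ x ∈ sl J a, h x := by
  apply sum_bij' (fun x _ => x ∘ Equiv.swap p q) (fun x _ => x ∘ Equiv.swap p q)
  · intro x hx; exact comp_mem _ hx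
  · intro x hx; exact comp_mem _ hx
  · intro x _; funext w; simp
  · intro x _; funext w; simp
  · intro x _; rfl

/-- inner product -/
noncomputable def ip (a : ℕ) (f g : (J → Bool) → ℝ) : ℝ := ∑ x ∈ sl J a, f x * g x

/-- energy -/
noncomputable def En (a : ℕ) (f g : (J → Bool) → ℝ) : ℝ :=
  ∑ p : J, ∑ q : J, ∑ x ∈ sl J a,
    (f x - f (x ∘ Equiv.swap p q)) * (g x - g (x ∘ Equiv.swap p q))

/-- generator -/
noncomputable def LL (g : (J → Bool) → ℝ) (x : J → Bool) : ℝ :=
  ∑ p : J, ∑ q : J, (g x - g (x ∘ Equiv.swap p q))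

theorem comp_swap_swap (x : J → Bool) (p q : J) :
    (x ∘ Equiv.swap p q) ∘ Equiv.swap p q = x := by funext w; simp

theorem En_eq (a : ℕ) (f g : (J → Bool) → ℝ) : En a f g = 2 * ip a f (LL g) := by
  unfold En ip LL
  simp_rw [mul_sum]
  have h1 : ∑ x ∈ sl J a, ∑ p : J, ∑ q : J, 2 * (f x * (g x - g (x ∘ Equiv.swap p q))) =
      ∑ p : J, ∑ q : J, ∑ x ∈ sl J a, 2 * (f x * (g x - g (x ∘ Equiv.swap p q))) := by
    rw [sum_comm]
    apply sum_congr rfl
    intro p _
    rw [sum_comm]
  rw [h1]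
  apply sum_congr rfl
  intro p _
  apply sum_congr rfl
  intro q _
  have e1 := sum_comp (a := a) p q (fun x => f x * g x)
  have e2 := sum_comp (a := a) p q (fun x => f x * g (x ∘ Equiv.swap p q))
  simp only [comp_swap_swap] at e2
  have e3 : ∑ x ∈ sl J a, (f x - f (x ∘ Equiv.swap p q)) * (g x - g (x ∘ Equiv.swap p q)) =
      ∑ x ∈ sl J a, f x * g x - ∑ x ∈ sl J a, f x * g (x ∘ Equiv.swap p q)
      - ∑ x ∈ sl J a, f (x ∘ Equiv.swap p q) * g x
      + ∑ x ∈ sl J a, f (x ∘ Equiv.swap p q) * g (x ∘ Equiv.swap p q) := by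
    rw [← sum_sub_distrib, ← sum_sub_distrib, ← sum_add_distrib]
    apply sum_congr rfl
    intro x _; ring
  have e4 : ∑ x ∈ sl J a, 2 * (f x * (g x - g (x ∘ Equiv.swap p q))) =
      2 * (∑ x ∈ sl J a, f x * g x - ∑ x ∈ sl J a, f x * g (x ∘ Equiv.swap p q)) := by
    rw [← sum_sub_distrib, mul_sum]
    apply sum_congr rfl
    intro x _; ring
  rw [e3, e4, e1, e2]
  ring

theorem En_comm (a : ℕ) (f g : (J → Bool) → ℝ) : En a f g = En a g f := by
  unfold En
  apply sum_congr rfl; intro p _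
  apply sum_congr rfl; intro q _
  apply sum_congr rfl; intro x _
  ring

theorem ip_comm (a : ℕ) (f g : (J → Bool) → ℝ) : ip a f g = ip a g f := by
  unfold ip
  apply sum_congr rfl; intro x _
  ring

/-- swap sums of one-point functions -/
theorem swap_sum1 (φ : J → ℝ) (w : J) :
    ∑ p : J, ∑ q : J, (φ w - φ (Equiv.swap p q w)) = 2 * ∑ z, (φ w - φ z) := by
  have h : ∀ p, ∑ q : J, (φ w - φ (Equiv.swap p q w)) =
      (φ w - φ p) + if p = w then ∑ q, (φ w - φ q) else 0 := by
    intro p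
    by_cases hp : p = w
    · subst hp
      simp [Equiv.swap_apply_left]
    · rw [if_neg hp, add_zero]
      rw [Finset.sum_eq_single w]
      · rw [Equiv.swap_apply_right]
      · intro q _ hq
        rw [Equiv.swap_apply_of_ne_of_ne (Ne.symm hp) (Ne.symm hq)]
        ring
      · intro h; exact absurd (mem_univ _) h
  simp_rw [h]
  rw [sum_add_distrib, Finset.sum_ite_eq' univ w]
  simp
  ring

/-- swap sums of two-point functions -/
theorem swap_sum2 (B : J → J → ℝ) (w z : J) (hwz : w ≠ z) :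
    ∑ p : J, ∑ q : J, (B w z - B (Equiv.swap p q w) (Equiv.swap p q z)) =
      2 * ∑ y, (2 * B w z - B y z - B w y) - 2 * B w z - 2 * B z w + 2 * B z z + 2 * B w w := by
  have h : ∀ p, ∑ q : J, (B w z - B (Equiv.swap p q w) (Equiv.swap p q z)) =
      ((B w z - B p z) + (B w z - B w p))
      + (if p = w then (∑ q, (B w z - B q z) + (B z z - B z w) - (B w z - B w w)) else 0)
      + (if p = z then (∑ q, (B w z - B w q) + (B w w - B z w) - (B w z - B z z)) else 0) := by
    intro p
    by_cases hp : p = w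
    · subst hp
      rw [if_pos rfl, if_neg hwz]
      have h1 : ∀ q, B p z - B (Equiv.swap p q p) (Equiv.swap p q z) =
          (B p z - B q z) + if q = z then (B z z - B z p) else 0 := by
        intro q
        rw [Equiv.swap_apply_left]
        by_cases hq : q = z
        · subst hq; rw [Equiv.swap_apply_right, if_pos rfl]; ring
        · rw [Equiv.swap_apply_of_ne_of_ne (Ne.symm hwz) (Ne.symm hq), if_neg hq]; ring
      simp_rw [h1]
      rw [sum_add_distrib, Finset.sum_ite_eq' univ z]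
      simp only [mem_univ, if_true]
      ring
    · by_cases hp2 : p = z
      · subst hp2
        rw [if_pos rfl, if_neg hp]
        have h1 : ∀ q, B w p - B (Equiv.swap p q w) (Equiv.swap p q p) =
            (B w p - B w q) + if q = w then (B w w - B p w) else 0 := by
          intro q
          rw [Equiv.swap_apply_left]
          by_cases hq : q = w
          · subst hq; rw [Equiv.swap_apply_right, if_pos rfl]; ring
          · rw [Equiv.swap_apply_of_ne_of_ne hwz (Ne.symm hq), if_neg hq]; ring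
        simp_rw [h1]
        rw [sum_add_distrib, Finset.sum_ite_eq' univ w]
        simp only [mem_univ, if_true]
        ring
      · rw [if_neg hp, if_neg hp2]
        have h1 : ∀ q, B w z - B (Equiv.swap p q w) (Equiv.swap p q z) =
            (if q = w then (B w z - B p z) else 0) + if q = z then (B w z - B w p) else 0 := by
          intro q
          by_cases hq : q = w
          · subst hq
            rw [Equiv.swap_apply_right, Equiv.swap_apply_of_ne_of_ne (Ne.symm hp2) (Ne.symm hwz),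
              if_pos rfl, if_neg hwz]; ring
          · by_cases hq2 : q = z
            · subst hq2
              rw [Equiv.swap_apply_right, Equiv.swap_apply_of_ne_of_ne (Ne.symm hp) hwz,
                if_neg hq, if_pos rfl]; ring
            · rw [Equiv.swap_apply_of_ne_of_ne (Ne.symm hp) (Ne.symm hq),
                Equiv.swap_apply_of_ne_of_ne (Ne.symm hp2) (Ne.symm hq2), if_neg hq, if_neg hq2]
              ring
        simp_rw [h1]
        rw [sum_add_distrib, Finset.sum_ite_eq' univ w, Finset.sum_ite_eq' univ z]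
        simp
  simp_rw [h]
  rw [sum_add_distrib, sum_add_distrib, Finset.sum_ite_eq' univ w, Finset.sum_ite_eq' univ z]
  simp only [mem_univ, if_true]
  have e1 : ∑ y, (2 * B w z - B y z - B w y) = ∑ y, (B w z - B y z) + ∑ y, (B w z - B w y) := by
    rw [← sum_add_distrib]; apply sum_congr rfl; intro y _; ring
  have e2 : ∑ y, ((B w z - B y z) + (B w z - B w y)) =
      ∑ y, (B w z - B y z) + ∑ y, (B w z - B w y) := sum_add_distrib
  rw [e1, e2]
  ring

/-! ### the quadratic functionals -/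

/-- first moments -/
noncomputable def uu (a : ℕ) (F : (J → Bool) → ℝ) (w : J) : ℝ := ∑ x ∈ sl J a, F x * bt x w

/-- sums over the sets `x w ≠ x z` -/
noncomputable def ss (a : ℕ) (F : (J → Bool) → ℝ) (w z : J) : ℝ :=
  ∑ x ∈ sl J a, F x * (bt x w - bt x z) ^ 2

/-- sizes of the sets `x w ≠ x z` -/
noncomputable def DD (J : Type) [Fintype J] [DecidableEq J] (a : ℕ) (w z : J) : ℝ :=
  ∑ x ∈ sl J a, (bt x w - bt x z) ^ 2

theorem ss_symm (a : ℕ) (F : (J → Bool) → ℝ) (w z : J) : ss a F w z = ss a F z w := by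
  unfold ss; apply sum_congr rfl; intro x _; ring

theorem ss_self (a : ℕ) (F : (J → Bool) → ℝ) (w : J) : ss a F w w = 0 := by
  unfold ss; simp

theorem DD_symm (a : ℕ) (w z : J) : DD J a w z = DD J a z w := by
  unfold DD; apply sum_congr rfl; intro x _; ring

theorem DD_self (a : ℕ) (w : J) : DD J a w w = 0 := by
  unfold DD; simp

theorem DD_swap (a : ℕ) (w z y : J) (h1 : z ≠ w) (h2 : y ≠ w) : DD J a w z = DD J a w y := by
  unfold DD
  rw [← sum_comp z y (fun x => (bt x w - bt x z) ^ 2)]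
  apply sum_congr rfl
  intro x _
  simp only [bt_comp]
  rw [Equiv.swap_apply_of_ne_of_ne (Ne.symm h1) (Ne.symm h2), Equiv.swap_apply_left]

theorem DD_const (a : ℕ) (w z w' z' : J) (h : w ≠ z) (h' : w' ≠ z') :
    DD J a w z = DD J a w' z' := by
  by_cases h1 : w' = z
  · subst h1
    by_cases h2 : z' = w
    · subst h2; exact DD_symm a _ _
    · rw [DD_symm a w w', DD_swap a w' w z' h (Ne.symm h')]
  · -- move w to w'
    rw [DD_symm a w z, DD_swap a z w w' h h1, DD_symm a z w']
    exact DD_swap a w' z z' (Ne.symm h1) (Ne.symm h')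

theorem n1_const (a : ℕ) (w z : J) :
    ∑ x ∈ sl J a, bt x w = ∑ x ∈ sl J a, bt x z := by
  rw [← sum_comp w z (fun x => bt x w)]
  apply sum_congr rfl
  intro x _
  rw [bt_comp, Equiv.swap_apply_left]

theorem sum_uu (a : ℕ) (F : (J → Bool) → ℝ) (hF : ∑ x ∈ sl J a, F x = 0) :
    ∑ w, uu a F w = 0 := by
  unfold uu
  rw [sum_comm]
  have : ∀ x ∈ sl J a, ∑ w, F x * bt x w = F x * a := by
    intro x hx
    rw [← mul_sum, sum_bt hx]
  rw [sum_congr rfl this, ← sum_mul, hF, zero_mul]

theorem sum_ss (a : ℕ) (F : (J → Bool) → ℝ) (hF : ∑ x ∈ sl J a, F x = 0) (w : J) :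
    ∑ z, ss a F w z = ((Fintype.card J : ℝ) - 2 * a) * uu a F w := by
  unfold ss uu
  rw [sum_comm]
  have : ∀ x ∈ sl J a, ∑ z, F x * (bt x w - bt x z) ^ 2 =
      a * F x + ((Fintype.card J : ℝ) - 2 * a) * (F x * bt x w) := by
    intro x hx
    have h1 : ∀ z, F x * (bt x w - bt x z) ^ 2 =
        F x * bt x w + (F x * (1 - 2 * bt x w)) * bt x z := by
      intro z
      have e1 := bt_sq x w
      have e2 := bt_sq x z
      linear_combination F x * e1 + F x * e2
    simp_rw [h1]
    rw [sum_add_distrib, sum_const, ← mul_sum, sum_bt hx, card_univ, nsmul_eq_mul]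
    ring
  rw [sum_congr rfl this, sum_add_distrib, ← mul_sum, ← mul_sum, hF]
  ring

/-! ### linear parts -/

theorem LL_lin (u : J → ℝ) (hu : ∑ w, u w = 0) (x : J → Bool) :
    LL (fun x => ∑ w, u w * bt x w) x = 2 * (Fintype.card J : ℝ) * ∑ w, u w * bt x w := by
  unfold LL
  have h1 : ∑ p : J, ∑ q : J, (∑ w, u w * bt x w - ∑ w, u w * bt (x ∘ Equiv.swap p q) w) =
      ∑ w, u w * ∑ p : J, ∑ q : J, (bt x w - bt x (Equiv.swap p q w)) := by
    have e1 : ∀ p q : J, ∑ w, u w * bt x w - ∑ w, u w * bt (x ∘ Equiv.swap p q) w =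
        ∑ w, u w * (bt x w - bt x (Equiv.swap p q w)) := by
      intro p q
      rw [← sum_sub_distrib]
      apply sum_congr rfl
      intro w _
      rw [bt_comp]
      ring
    simp_rw [e1, mul_sum]
    rw [sum_congr rfl (fun p _ => sum_comm), sum_comm]
  rw [h1]
  have h2 : ∀ w, ∑ p : J, ∑ q : J, (bt x w - bt x (Equiv.swap p q w)) =
      2 * ((Fintype.card J : ℝ) * bt x w - ∑ z, bt x z) := by
    intro w
    rw [swap_sum1 (fun w => bt x w) w, sum_sub_distrib, sum_const, card_univ, nsmul_eq_mul]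
  simp_rw [h2]
  have h3 : ∑ w, u w * (2 * ((Fintype.card J : ℝ) * bt x w - ∑ z, bt x z)) =
      2 * (Fintype.card J : ℝ) * ∑ w, u w * bt x w - 2 * (∑ w, u w) * ∑ z, bt x z := by
    rw [mul_sum, mul_assoc, sum_mul, mul_sum, ← sum_sub_distrib]
    apply sum_congr rfl
    intro w _
    ring
  rw [h3, hu]
  ring

/-- zero row sums kill functions of one variable -/
theorem sp_row (sp : J → J → ℝ) (hr : ∀ w, ∑ z, sp w z = 0) (φ : J → ℝ) :
    ∑ w, ∑ z, sp w z * φ w = 0 := by
  apply sum_eq_zero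
  intro w _
  rw [← sum_mul, hr, zero_mul]

theorem sp_col (sp : J → J → ℝ) (hs : ∀ w z, sp w z = sp z w) (hr : ∀ w, ∑ z, sp w z = 0)
    (φ : J → ℝ) : ∑ w, ∑ z, sp w z * φ z = 0 := by
  rw [sum_comm]
  apply sum_eq_zero
  intro z _
  rw [← sum_mul]
  have : ∑ w, sp w z = 0 := by
    rw [← hr z]; apply sum_congr rfl; intro w _; exact hs w z
  rw [this, zero_mul]

/-- the quadratic test function -/
noncomputable def QQ (sp : J → J → ℝ) (x : J → Bool) : ℝ :=
  ∑ w, ∑ z, sp w z * (bt x w * bt x z)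

theorem LL_QQ (sp : J → J → ℝ) (hs : ∀ w z, sp w z = sp z w) (h0 : ∀ w, sp w w = 0)
    (hr : ∀ w, ∑ z, sp w z = 0) (x : J → Bool) :
    LL (QQ sp) x = 4 * ((Fintype.card J : ℝ) - 1) * QQ sp x := by
  unfold LL
  have h1 : ∑ p : J, ∑ q : J, (QQ sp x - QQ sp (x ∘ Equiv.swap p q)) =
      ∑ w, ∑ z, sp w z * ∑ p : J, ∑ q : J,
        (bt x w * bt x z - bt x (Equiv.swap p q w) * bt x (Equiv.swap p q z)) := by
    have e1 : ∀ p q : J, QQ sp x - QQ sp (x ∘ Equiv.swap p q) =
        ∑ w, ∑ z, sp w z *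
          (bt x w * bt x z - bt x (Equiv.swap p q w) * bt x (Equiv.swap p q z)) := by
      intro p q
      unfold QQ
      rw [← sum_sub_distrib]
      apply sum_congr rfl; intro w _
      rw [← sum_sub_distrib]
      apply sum_congr rfl; intro z _
      rw [bt_comp, bt_comp]; ring
    simp_rw [e1, mul_sum]
    rw [sum_congr rfl (fun p _ => sum_comm), sum_comm]
    apply sum_congr rfl; intro w _
    rw [sum_congr rfl (fun p _ => sum_comm), sum_comm]
  rw [h1]
  have h2 : ∀ w z, sp w z * ∑ p : J, ∑ q : J,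
        (bt x w * bt x z - bt x (Equiv.swap p q w) * bt x (Equiv.swap p q z)) =
      (4 * (Fintype.card J : ℝ) - 4) * (sp w z * (bt x w * bt x z))
      + sp w z * (2 * bt x w ^ 2 - 2 * (∑ y, bt x y) * bt x w)
      + sp w z * (2 * bt x z ^ 2 - 2 * (∑ y, bt x y) * bt x z) := by
    intro w z
    by_cases hwz : w = z
    · subst hwz; rw [h0 w]; ring
    · rw [swap_sum2 (fun w z => bt x w * bt x z) w z hwz]
      have e2 : ∑ y, (2 * (bt x w * bt x z) - bt x y * bt x z - bt x w * bt x y) =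
          (Fintype.card J : ℝ) * (2 * (bt x w * bt x z)) - (∑ y, bt x y) * bt x z
            - bt x w * (∑ y, bt x y) := by
        rw [sum_sub_distrib, sum_sub_distrib, sum_const, card_univ, nsmul_eq_mul, ← sum_mul,
          ← mul_sum]
      rw [e2]
      ring
  simp_rw [h2]
  simp_rw [sum_add_distrib]
  rw [sp_row sp hr (fun w => 2 * bt x w ^ 2 - 2 * (∑ y, bt x y) * bt x w),
    sp_col sp hs hr (fun z => 2 * bt x z ^ 2 - 2 * (∑ y, bt x y) * bt x z)]
  unfold QQ
  simp_rw [← mul_sum]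
  ring

/-! ### inner products -/

theorem ip_F_lin (a : ℕ) (F : (J → Bool) → ℝ) (u : J → ℝ) :
    ip a F (fun x => ∑ w, u w * bt x w) = ∑ w, u w * uu a F w := by
  unfold ip uu
  simp_rw [mul_sum]
  rw [sum_comm]
  apply sum_congr rfl; intro w _
  apply sum_congr rfl; intro x _
  ring

theorem sum_bb (a : ℕ) (F : (J → Bool) → ℝ) (w z : J) :
    ∑ x ∈ sl J a, F x * (bt x w * bt x z) = (uu a F w + uu a F z - ss a F w z) / 2 := by
  unfold uu ss
  rw [← sum_add_distrib, ← sum_sub_distrib, sum_div]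
  apply sum_congr rfl; intro x _
  have e1 := bt_sq x w
  have e2 := bt_sq x z
  linear_combination (F x / 2) * e1 + (F x / 2) * e2

theorem ip_F_QQ (a : ℕ) (F : (J → Bool) → ℝ) (sp : J → J → ℝ) (hs : ∀ w z, sp w z = sp z w)
    (hr : ∀ w, ∑ z, sp w z = 0) :
    ip a F (QQ sp) = -(1 / 2) * ∑ w, ∑ z, sp w z * ss a F w z := by
  unfold ip QQ
  have h1 : ∑ x ∈ sl J a, F x * ∑ w, ∑ z, sp w z * (bt x w * bt x z) =
      ∑ w, ∑ z, sp w z * ∑ x ∈ sl J a, F x * (bt x w * bt x z) := by
    simp_rw [mul_sum]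
    rw [sum_comm]
    apply sum_congr rfl; intro w _
    rw [sum_comm]
    apply sum_congr rfl; intro z _
    apply sum_congr rfl; intro x _
    ring
  rw [h1]
  simp_rw [sum_bb]
  have h2 : ∀ w z, sp w z * ((uu a F w + uu a F z - ss a F w z) / 2) =
      sp w z * (uu a F w / 2) + sp w z * (uu a F z / 2) + (-(1 / 2)) * (sp w z * ss a F w z) := by
    intro w z; ring
  simp_rw [h2, sum_add_distrib]
  rw [sp_row sp hr (fun w => uu a F w / 2), sp_col sp hs hr (fun z => uu a F z / 2)]
  simp_rw [← mul_sum]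
  ring

/-- `DD` is a constant off the diagonal -/
theorem ip_lin_lin (a : ℕ) (N : ℝ) (hN : ∀ w z : J, w ≠ z → DD J a w z = N) (u : J → ℝ)
    (hu : ∑ w, u w = 0) :
    ip a (fun x => ∑ w, u w * bt x w) (fun x => ∑ w, u w * bt x w) =
      N / 2 * ∑ w, u w ^ 2 := by
  unfold ip
  have h1 : ∀ w z, ∑ x ∈ sl J a, bt x w * bt x z =
      (∑ x ∈ sl J a, bt x w) / 2 + (∑ x ∈ sl J a, bt x z) / 2 - DD J a w z / 2 := by
    intro w z
    unfold DD
    rw [sum_div, sum_div, sum_div, ← sum_add_distrib, ← sum_sub_distrib]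
    apply sum_congr rfl; intro x _
    have e1 := bt_sq x w
    have e2 := bt_sq x z
    linear_combination (1 / 2) * e1 + (1 / 2) * e2
  have h2 : ∑ x ∈ sl J a, (∑ w, u w * bt x w) * ∑ w, u w * bt x w =
      ∑ w, ∑ z, u w * u z * ∑ x ∈ sl J a, bt x w * bt x z := by
    simp_rw [sum_mul_sum, mul_sum]
    rw [sum_comm]
    apply sum_congr rfl; intro w _
    rw [sum_comm]
    apply sum_congr rfl; intro z _
    apply sum_congr rfl; intro x _
    ring
  rw [h2]
  have h3 : ∀ w z, u w * u z * ∑ x ∈ sl J a, bt x w * bt x z =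
      (u w * (∑ x ∈ sl J a, bt x w) / 2) * u z + u w * (u z * (∑ x ∈ sl J a, bt x z) / 2)
        - (u w * (N / 2)) * u z + (if w = z then N / 2 * u w ^ 2 else 0) := by
    intro w z
    rw [h1]
    by_cases hwz : w = z
    · subst hwz
      rw [if_pos rfl, DD_self]; ring
    · rw [if_neg hwz, hN w z hwz]; ring
  simp_rw [h3, sum_add_distrib, sum_sub_distrib, sum_add_distrib, ← mul_sum]
  simp only [hu, mul_zero, sum_const_zero, zero_add, sub_zero, ← sum_mul, zero_mul,
    Finset.sum_ite_eq, mem_univ, if_true, ← mul_sum]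

theorem ip_QQ_le (a : ℕ) (N : ℝ) (hN : ∀ w z : J, w ≠ z → DD J a w z = N) (sp : J → J → ℝ)
    (hs : ∀ w z, sp w z = sp z w) (hr : ∀ w, ∑ z, sp w z = 0) :
    ip a (QQ sp) (QQ sp) ≤ (Fintype.card J : ℝ) * N / 8 * ∑ w, ∑ z, sp w z ^ 2 := by
  have h1 : ∀ x, QQ sp x = -(1 / 2) * ∑ w, ∑ z, sp w z * (bt x w - bt x z) ^ 2 := by
    intro x
    have e : ∀ w z, sp w z * (bt x w - bt x z) ^ 2 =
        sp w z * (bt x w ^ 2) + sp w z * (bt x z ^ 2) + (-2) * (sp w z * (bt x w * bt x z)) := by
      intro w z; ring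
    simp_rw [e, sum_add_distrib]
    rw [sp_row sp hr (fun w => bt x w ^ 2), sp_col sp hs hr (fun z => bt x z ^ 2)]
    unfold QQ
    simp_rw [← mul_sum]
    ring
  have h2 : ∀ x, QQ sp x * QQ sp x ≤
      (Fintype.card J : ℝ) / 4 * ∑ w, (∑ z, sp w z * (bt x w - bt x z) ^ 2) ^ 2 := by
    intro x
    rw [h1 x]
    have := sq_sum_le_card_mul_sum_sq (s := (univ : Finset J))
      (f := fun w => ∑ z, sp w z * (bt x w - bt x z) ^ 2)
    rw [card_univ] at this
    nlinarith
  have h3 : ∀ w, ∑ x ∈ sl J a, (∑ z, sp w z * (bt x w - bt x z) ^ 2) ^ 2 =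
      N / 2 * ∑ z, sp w z ^ 2 := by
    intro w
    have e1 : ∀ z y, ∑ x ∈ sl J a, (bt x w - bt x z) ^ 2 * (bt x w - bt x y) ^ 2 =
        DD J a w z / 2 + DD J a w y / 2 - DD J a z y / 2 := by
      intro z y
      unfold DD
      rw [sum_div, sum_div, sum_div, ← sum_add_distrib, ← sum_sub_distrib]
      apply sum_congr rfl; intro x _
      unfold bt
      by_cases c1 : x w <;> by_cases c2 : x z <;> by_cases c3 : x y <;> simp [c1, c2, c3] <;>
        norm_num
    have e2 : ∑ x ∈ sl J a, (∑ z, sp w z * (bt x w - bt x z) ^ 2) ^ 2 =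
        ∑ z, ∑ y, sp w z * sp w y *
          ∑ x ∈ sl J a, (bt x w - bt x z) ^ 2 * (bt x w - bt x y) ^ 2 := by
      simp_rw [sq (∑ z, _), sum_mul_sum, mul_sum]
      rw [sum_comm]
      apply sum_congr rfl; intro z _
      rw [sum_comm]
      apply sum_congr rfl; intro y _
      apply sum_congr rfl; intro x _
      ring
    rw [e2]
    have e3 : ∀ z y, sp w z * sp w y *
        ∑ x ∈ sl J a, (bt x w - bt x z) ^ 2 * (bt x w - bt x y) ^ 2 =
        (sp w z * DD J a w z / 2) * sp w y + sp w z * (sp w y * DD J a w y / 2)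
          - (sp w z * (N / 2)) * sp w y + (if z = y then N / 2 * sp w z ^ 2 else 0) := by
      intro z y
      rw [e1]
      by_cases hzy : z = y
      · subst hzy; rw [if_pos rfl, DD_self]; ring
      · rw [if_neg hzy, hN z y hzy]; ring
    simp_rw [e3, sum_add_distrib, sum_sub_distrib, sum_add_distrib, ← mul_sum]
    simp only [hr, mul_zero, sum_const_zero, zero_add, sub_zero, ← sum_mul, zero_mul,
      Finset.sum_ite_eq, mem_univ, if_true, ← mul_sum]
  unfold ip
  calc ∑ x ∈ sl J a, QQ sp x * QQ sp x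
      ≤ ∑ x ∈ sl J a, (Fintype.card J : ℝ) / 4 *
          ∑ w, (∑ z, sp w z * (bt x w - bt x z) ^ 2) ^ 2 := sum_le_sum (fun x _ => h2 x)
    _ = (Fintype.card J : ℝ) / 4 * ∑ w, ∑ x ∈ sl J a,
          (∑ z, sp w z * (bt x w - bt x z) ^ 2) ^ 2 := by
        rw [← mul_sum, sum_comm]
    _ = _ := by
        simp_rw [h3, ← mul_sum]
        ring

/-! ### the energy inequality -/

theorem En_expand (a : ℕ) (F U Q : (J → Bool) → ℝ) (l m : ℝ) :
    0 ≤ En a F F + l ^ 2 * En a U U + m ^ 2 * En a Q Q - 2 * l * En a F U - 2 * m * En a F Q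
      + 2 * l * m * En a U Q := by
  have h : En a F F + l ^ 2 * En a U U + m ^ 2 * En a Q Q - 2 * l * En a F U - 2 * m * En a F Q
      + 2 * l * m * En a U Q =
      ∑ p : J, ∑ q : J, ∑ x ∈ sl J a, ((F x - F (x ∘ Equiv.swap p q))
        - l * (U x - U (x ∘ Equiv.swap p q)) - m * (Q x - Q (x ∘ Equiv.swap p q))) ^ 2 := by
    unfold En
    simp only [mul_sum, ← sum_add_distrib, ← sum_sub_distrib]
    apply sum_congr rfl; intro p _
    apply sum_congr rfl; intro q _
    apply sum_congr rfl; intro x _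
    ring
  rw [h]
  positivity

theorem ip_smul_right (a : ℕ) (f g h : (J → Bool) → ℝ) (c : ℝ) (hg : ∀ x, g x = c * h x) :
    ip a f g = c * ip a f h := by
  unfold ip
  rw [mul_sum]
  apply sum_congr rfl; intro x _
  rw [hg]; ring

/-- scalar part of the energy inequality -/
theorem final_ineq (k N a Su Ss EF EQ : ℝ) (hk3 : 3 ≤ k) (hN0 : 0 < N) (ha1 : 1 ≤ a)
    (ha2 : a + 1 ≤ k) (hSu0 : 0 ≤ Su) (hSs0 : 0 ≤ Ss)
    (hexp : 0 ≤ EF + (2 / N) ^ 2 * (2 * k * N * Su) + (-(4 / (k * N))) ^ 2 * EQ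
      - 2 * (2 / N) * (4 * k * Su) - 2 * (-(4 / (k * N))) * (-(4 * (k - 1) * Ss))
      + 2 * (2 / N) * (-(4 / (k * N))) * 0)
    (hQQ : EQ ≤ k * (k - 1) * N * Ss) :
    4 / N * (2 / (k - 2) * ((k - 2 * a) ^ 2 * Su) + Ss) ≤ EF := by
  have hkpos : 0 < k := by linarith
  have hk2pos : 0 < k - 2 := by linarith
  have e5 : (-(4 / (k * N))) ^ 2 * EQ ≤ 16 * (k - 1) / (k * N) * Ss := by
    have h1 := mul_le_mul_of_nonneg_left hQQ (sq_nonneg (-(4 / (k * N))))
    refine h1.trans (le_of_eq ?_)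
    field_simp
    ring
  have h2 : (2 / N) ^ 2 * (2 * k * N * Su) - 2 * (2 / N) * (4 * k * Su) =
      -(8 * k / N * Su) := by
    field_simp
    ring
  have h3 : -(2 * (-(4 / (k * N))) * -(4 * (k - 1) * Ss)) =
      -(2 * (16 * (k - 1) / (k * N) * Ss)) := by
    field_simp
    ring
  have e6 : 8 * k / N * Su + 16 * (k - 1) / (k * N) * Ss ≤ EF := by
    linarith
  have g1 : (k - 2 * a) ^ 2 ≤ k * (k - 2) := by nlinarith
  have g2 : 4 / N * (2 / (k - 2) * ((k - 2 * a) ^ 2 * Su)) ≤ 8 * k / N * Su := by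
    have e : 4 / N * (2 / (k - 2) * ((k - 2 * a) ^ 2 * Su)) =
        (8 / (N * (k - 2)) * Su) * (k - 2 * a) ^ 2 := by
      field_simp
      ring
    rw [e]
    have h1 : 0 ≤ 8 / (N * (k - 2)) * Su := by positivity
    refine (mul_le_mul_of_nonneg_left g1 h1).trans (le_of_eq ?_)
    field_simp
  have g3 : 4 / N * Ss ≤ 16 * (k - 1) / (k * N) * Ss := by
    apply mul_le_mul_of_nonneg_right _ hSs0
    rw [div_le_div_iff₀ hN0 (by positivity)]
    nlinarith
  have g4 : 4 / N * (2 / (k - 2) * ((k - 2 * a) ^ 2 * Su) + Ss) =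
      4 / N * (2 / (k - 2) * ((k - 2 * a) ^ 2 * Su)) + 4 / N * Ss := by ring
  linarith

/-- main inequality, `card J ≥ 3`, nontrivial slice -/
theorem energy_ge (a : ℕ) (F : (J → Bool) → ℝ) (hF : ∑ x ∈ sl J a, F x = 0) (N : ℝ)
    (hN0 : 0 < N) (hN : ∀ w z : J, w ≠ z → DD J a w z = N) (hk : 3 ≤ Fintype.card J)
    (ha1 : 1 ≤ a) (ha2 : a + 1 ≤ Fintype.card J) :
    4 / N * ∑ w, ∑ z, ss a F w z ^ 2 ≤ En a F F := by
  set k : ℝ := (Fintype.card J : ℝ) with hkdef
  have hk3 : (3 : ℝ) ≤ k := by rw [hkdef]; exact_mod_cast hk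
  have hk2 : k - 2 ≠ 0 := by linarith
  have ha1' : (1 : ℝ) ≤ a := by exact_mod_cast ha1
  have ha2' : (a : ℝ) + 1 ≤ k := by rw [hkdef]; exact_mod_cast ha2
  -- row sums
  set σ : J → ℝ := fun w => ∑ z, ss a F w z with hσ
  have hσu : ∀ w, σ w = (k - 2 * a) * uu a F w := fun w => sum_ss a F hF w
  have hu0 : ∑ w, uu a F w = 0 := sum_uu a F hF
  have hσ0 : ∑ w, σ w = 0 := by
    simp_rw [hσu, ← mul_sum, hu0, mul_zero]
  set sp : J → J → ℝ := fun w z => if w = z then 0 else ss a F w z - (σ w + σ z) / (k - 2) with hsp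
  have hsps : ∀ w z, sp w z = sp z w := by
    intro w z
    simp only [hsp]
    by_cases hwz : w = z
    · subst hwz; rfl
    · rw [if_neg hwz, if_neg (Ne.symm hwz), ss_symm a F w z, add_comm (σ w)]
  have hsp0 : ∀ w, sp w w = 0 := fun w => by simp only [hsp, if_true]
  have hspeq : ∀ w z, sp w z = ss a F w z - (σ w + σ z) / (k - 2)
      + (if w = z then 2 * σ w / (k - 2) else 0) := by
    intro w z
    simp only [hsp]
    by_cases hwz : w = z
    · subst hwz; rw [if_pos rfl, if_pos rfl, ss_self]; ring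
    · rw [if_neg hwz, if_neg hwz]; ring
  have hspr : ∀ w, ∑ z, sp w z = 0 := by
    intro w
    have e1 : ∑ z, (σ w + σ z) / (k - 2) = k * σ w / (k - 2) := by
      rw [← sum_div, sum_add_distrib, hσ0, sum_const, card_univ, nsmul_eq_mul, add_zero]
    have e2 : ∑ z, ss a F w z = σ w := rfl
    simp_rw [hspeq]
    rw [sum_add_distrib, sum_sub_distrib, e1, e2, Finset.sum_ite_eq, if_pos (mem_univ _)]
    field_simp
    ring
  -- decomposition of the squares
  have hsq : ∑ w, ∑ z, ss a F w z ^ 2 = 2 / (k - 2) * ∑ w, σ w ^ 2 + ∑ w, ∑ z, sp w z ^ 2 := by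
    have e1 : ∀ w z, ss a F w z ^ 2 = sp w z ^ 2 + sp w z * (2 * σ w / (k - 2))
        + sp w z * (2 * σ z / (k - 2)) + σ w ^ 2 / (k - 2) ^ 2 + σ z ^ 2 / (k - 2) ^ 2
          + (2 * σ w / (k - 2) ^ 2) * σ z - (if w = z then 4 * σ w ^ 2 / (k - 2) ^ 2 else 0) := by
      intro w z
      by_cases hwz : w = z
      · subst hwz
        rw [ss_self, hsp0, if_pos rfl]; ring
      · have : ss a F w z = sp w z + (σ w + σ z) / (k - 2) := by
          rw [hspeq, if_neg hwz]; ring
        rw [this, if_neg hwz]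
        field_simp
        ring
    have a1 : ∑ w : J, ∑ _z : J, σ w ^ 2 / (k - 2) ^ 2 = k * (∑ w, σ w ^ 2) / (k - 2) ^ 2 := by
      simp_rw [sum_const, card_univ, nsmul_eq_mul]
      rw [← mul_sum, ← sum_div, mul_div_assoc]
    have a2 : ∑ _w : J, ∑ z : J, σ z ^ 2 / (k - 2) ^ 2 = k * (∑ w, σ w ^ 2) / (k - 2) ^ 2 := by
      rw [sum_const, card_univ, nsmul_eq_mul, ← sum_div, mul_div_assoc]
    have a3 : ∑ w : J, ∑ z : J, (2 * σ w / (k - 2) ^ 2) * σ z = 0 := by
      simp_rw [← mul_sum, hσ0, mul_zero, sum_const_zero]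
    have a4 : ∑ w : J, ∑ z : J, (if w = z then 4 * σ w ^ 2 / (k - 2) ^ 2 else 0) =
        4 * (∑ w, σ w ^ 2) / (k - 2) ^ 2 := by
      simp_rw [Finset.sum_ite_eq, if_pos (mem_univ _)]
      rw [← sum_div, ← mul_sum]
    simp_rw [e1, sum_sub_distrib, sum_add_distrib]
    rw [sp_row sp hspr (fun w => 2 * σ w / (k - 2)), sp_col sp hsps hspr
      (fun z => 2 * σ z / (k - 2)), a1, a2, a3, a4]
    field_simp
    ring
  -- pairings
  have hspss : ∑ w, ∑ z, sp w z * ss a F w z = ∑ w, ∑ z, sp w z ^ 2 := by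
    have e1 : ∀ w z, sp w z * ss a F w z = sp w z ^ 2 + sp w z * (σ w / (k - 2))
        + sp w z * (σ z / (k - 2)) := by
      intro w z
      by_cases hwz : w = z
      · subst hwz; rw [hsp0]; ring
      · have : ss a F w z = sp w z + (σ w + σ z) / (k - 2) := by
          rw [hspeq, if_neg hwz]; ring
        rw [this]; ring
    simp_rw [e1, sum_add_distrib]
    rw [sp_row sp hspr (fun w => σ w / (k - 2)), sp_col sp hsps hspr (fun z => σ z / (k - 2))]
    ring
  set u : J → ℝ := fun w => uu a F w with hu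
  set U : (J → Bool) → ℝ := fun x => ∑ w, u w * bt x w with hU
  set Q : (J → Bool) → ℝ := QQ sp with hQ
  set Su : ℝ := ∑ w, u w ^ 2 with hSu
  set Ss : ℝ := ∑ w, ∑ z, sp w z ^ 2 with hSs
  have hLU : ∀ x, LL U x = (2 * k) * U x := fun x => LL_lin u hu0 x
  have hLQ : ∀ x, LL Q x = (4 * (k - 1)) * Q x := fun x => LL_QQ sp hsps hsp0 hspr x
  have hFU : En a F U = 4 * k * Su := by
    rw [En_eq, ip_smul_right a F (LL U) U (2 * k) hLU, ip_F_lin]
    have : ∑ w, u w * uu a F w = Su := by
      rw [hSu]; apply sum_congr rfl; intro w _; rw [hu]; ring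
    rw [this]; ring
  have hFQ : En a F Q = -(4 * (k - 1) * Ss) := by
    rw [En_eq, ip_smul_right a F (LL Q) Q (4 * (k - 1)) hLQ, ip_F_QQ a F sp hsps hspr, hspss]
    ring
  have hUU : En a U U = 2 * k * N * Su := by
    rw [En_eq, ip_smul_right a U (LL U) U (2 * k) hLU, ip_lin_lin a N hN u hu0]
    ring
  have hQQ : En a Q Q ≤ k * (k - 1) * N * Ss := by
    rw [En_eq, ip_smul_right a Q (LL Q) Q (4 * (k - 1)) hLQ]
    have := ip_QQ_le a N hN sp hsps hspr
    rw [← hkdef] at this
    have h1 : 0 ≤ 8 * (k - 1) := by linarith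
    have h2 := mul_le_mul_of_nonneg_left this h1
    calc 2 * (4 * (k - 1) * ip a Q Q) = 8 * (k - 1) * ip a (QQ sp) (QQ sp) := by ring
      _ ≤ _ := h2
      _ = _ := by ring
  have hUQ : En a U Q = 0 := by
    have e1 : En a U Q = 8 * (k - 1) * ip a U Q := by
      rw [En_eq, ip_smul_right a U (LL Q) Q (4 * (k - 1)) hLQ]; ring
    have e2 : En a U Q = 4 * k * ip a U Q := by
      rw [En_comm, En_eq, ip_smul_right a Q (LL U) U (2 * k) hLU, ip_comm]; ring
    have e3 : (4 * k - 8) * ip a U Q = 0 := by linarith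
    have e4 : ip a U Q = 0 := by
      rcases mul_eq_zero.mp e3 with h | h
      · linarith
      · exact h
    rw [e1, e4, mul_zero]
  have hexp := En_expand a F U Q (2 / N) (-(4 / (k * N)))
  rw [hFU, hFQ, hUU, hUQ] at hexp
  have hSu0 : 0 ≤ Su := by rw [hSu]; positivity
  have hSs0 : 0 ≤ Ss := by rw [hSs]; positivity
  have hσ2 : ∑ w, σ w ^ 2 = (k - 2 * a) ^ 2 * Su := by
    rw [hSu, mul_sum]
    apply sum_congr rfl; intro w _
    rw [hσu]; ring
  rw [hsq, hσ2]
  exact final_ineq k N a Su Ss (En a F F) (En a Q Q) hk3 hN0 ha1' ha2' hSu0 hSs0 hexp hQQ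

theorem filter_sum (a : ℕ) (F : (J → Bool) → ℝ) (w z : J) :
    ∑ x ∈ (sl J a).filter (fun x => x w ≠ x z), F x = ss a F w z := by
  unfold ss
  rw [sum_filter]
  apply sum_congr rfl; intro x _
  unfold bt
  by_cases c1 : x w <;> by_cases c2 : x z <;> simp [c1, c2]

theorem filter_card (a : ℕ) (w z : J) :
    (((sl J a).filter (fun x => x w ≠ x z)).card : ℝ) = DD J a w z := by
  unfold DD
  rw [card_filter]
  push_cast
  apply sum_congr rfl; intro x _
  unfold bt
  by_cases c1 : x w <;> by_cases c2 : x z <;> simp [c1, c2]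

theorem DD_nonneg (a : ℕ) (w z : J) : 0 ≤ DD J a w z := by
  rw [← filter_card]; positivity

end Slice

open Slice in
/-- **Slice lemma.** -/
theorem slice_lemma {J : Type} [Fintype J] [DecidableEq J] (a : ℕ) (F : (J → Bool) → ℝ)
    (hF : ∑ x ∈ sl J a, F x = 0) :
    ∑ w : J, ∑ z : J, (∑ x ∈ (sl J a).filter (fun x => x w ≠ x z), F x) ^ 2 /
        (((sl J a).filter (fun x => x w ≠ x z)).card : ℝ) ≤
      (1 / 4) * ∑ w : J, ∑ z : J, ∑ x ∈ sl J a, (F x - F (x ∘ Equiv.swap w z)) ^ 2 := by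
  simp_rw [filter_sum, filter_card]
  have hR : ∑ w : J, ∑ z : J, ∑ x ∈ sl J a, (F x - F (x ∘ Equiv.swap w z)) ^ 2 = En a F F := by
    unfold En
    apply sum_congr rfl; intro w _
    apply sum_congr rfl; intro z _
    apply sum_congr rfl; intro x _
    ring
  rw [hR]
  have hR0 : 0 ≤ En a F F := by rw [← hR]; positivity
  by_cases hall : ∀ w z : J, w ≠ z → DD J a w z = 0
  · have : ∑ w : J, ∑ z : J, ss a F w z ^ 2 / DD J a w z = 0 := by
      apply sum_eq_zero; intro w _
      apply sum_eq_zero; intro z _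
      by_cases hwz : w = z
      · subst hwz; rw [ss_self]; simp
      · rw [hall w z hwz, div_zero]
    rw [this]; positivity
  · push Not at hall
    obtain ⟨w0, z0, hne, hD⟩ := hall
    set N := DD J a w0 z0 with hNdef
    have hN0 : 0 < N := lt_of_le_of_ne (DD_nonneg a w0 z0) (Ne.symm hD)
    have hN : ∀ w z : J, w ≠ z → DD J a w z = N := fun w z h => DD_const a w z w0 z0 h hne
    -- the slice is not trivial
    obtain ⟨x0, hx0, hx1⟩ : ∃ x ∈ sl J a, x w0 ≠ x z0 := by
      by_contra hcon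
      push Not at hcon
      have : N = 0 := by
        rw [hNdef, ← filter_card, filter_false_of_mem]
        · simp
        · intro x hx; simp only [ne_eq, not_not]; exact hcon x hx
      exact hD this
    have hsum : ∑ j, (x0 j).toNat = a := by
      unfold sl at hx0; exact (mem_filter.mp hx0).2
    have ha1 : 1 ≤ a := by
      rw [← hsum]
      have h1 : (x0 w0).toNat ≤ ∑ j, (x0 j).toNat :=
        single_le_sum (f := fun j => (x0 j).toNat) (fun _ _ => Nat.zero_le _) (mem_univ w0)
      have h2 : (x0 z0).toNat ≤ ∑ j, (x0 j).toNat :=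
        single_le_sum (f := fun j => (x0 j).toNat) (fun _ _ => Nat.zero_le _) (mem_univ z0)
      by_contra hlt
      apply hx1
      have b1 : (x0 w0).toNat = 0 := by omega
      have b2 : (x0 z0).toNat = 0 := by omega
      cases e1 : x0 w0
      · cases e2 : x0 z0
        · rfl
        · rw [e2] at b2; exact absurd b2 (by decide)
      · rw [e1] at b1; exact absurd b1 (by decide)
    have ha2 : a + 1 ≤ Fintype.card J := by
      rw [← hsum, Nat.add_one_le_iff]
      have h3 : ∑ j, (x0 j).toNat < ∑ _j : J, 1 := by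
        apply sum_lt_sum
        · intro j _; cases x0 j <;> simp
        · cases e1 : x0 w0 <;> cases e2 : x0 z0
          · rw [e1, e2] at hx1; exact absurd rfl hx1
          · exact ⟨w0, mem_univ _, by rw [e1]; simp⟩
          · exact ⟨z0, mem_univ _, by rw [e2]; simp⟩
          · rw [e1, e2] at hx1; exact absurd rfl hx1
      simpa using h3
    have hLHS : ∑ w : J, ∑ z : J, ss a F w z ^ 2 / DD J a w z =
        1 / N * ∑ w : J, ∑ z : J, ss a F w z ^ 2 := by
      rw [mul_sum]
      apply sum_congr rfl; intro w _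
      rw [mul_sum]
      apply sum_congr rfl; intro z _
      by_cases hwz : w = z
      · subst hwz; rw [ss_self]; simp
      · rw [hN w z hwz]; ring
    rw [hLHS]
    by_cases hk : 3 ≤ Fintype.card J
    · have := energy_ge a F hF N hN0 hN hk ha1 ha2
      have e : 4 / N * ∑ w : J, ∑ z : J, ss a F w z ^ 2 =
          4 * (1 / N * ∑ w : J, ∑ z : J, ss a F w z ^ 2) := by ring
      linarith
    · have hcard : Fintype.card J = 2 := by omega
      have ha : a = 1 := by omega
      have hz : ∀ w z : J, ss a F w z = 0 := by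
        intro w z
        by_cases hwz : w = z
        · subst hwz; exact ss_self a F w
        · have huniv : (univ : Finset J) = {w, z} := by
            symm
            apply eq_of_subset_of_card_le (subset_univ _)
            rw [card_univ, hcard, card_pair hwz]
          have h1 := sum_ss a F hF w
          rw [huniv, sum_pair hwz, ss_self, zero_add, hcard, ha] at h1
          rw [ha, h1]; norm_num
      have : ∑ w : J, ∑ z : J, ss a F w z ^ 2 = 0 := by
        apply sum_eq_zero; intro w _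
        apply sum_eq_zero; intro z _
        rw [hz]; norm_num
      rw [this]; simp; exact hR0

open Slice in
/-- **Slice lemma**, second form. -/
theorem slice_bool {J : Type} [Fintype J] [DecidableEq J] (a : ℕ) (F : (J → Bool) → ℝ)
    (hF : ∑ x with (univ.filter (fun w => x w = true)).card = a, F x = 0) :
    ∑ w, ∑ z, (if w ≠ z then
        (∑ x with ((univ.filter (fun w => x w = true)).card = a ∧ x w ≠ x z), F x) ^ 2 /
        ((univ.filter (fun x : J → Bool =>
          (univ.filter (fun w => x w = true)).card = a ∧ x w ≠ x z)).card : ℝ) else 0) ≤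
      (1 / 4) * ∑ w, ∑ z, ∑ x with (univ.filter (fun w => x w = true)).card = a,
        (F x - F (x ∘ Equiv.swap w z)) ^ 2 := by
  have hsl : sl J a = univ.filter (fun x : J → Bool =>
      (univ.filter (fun w => x w = true)).card = a) := by
    unfold sl
    apply filter_congr
    intro x _
    have : ∑ j, (x j).toNat = (univ.filter (fun w => x w = true)).card := by
      rw [card_filter]
      apply sum_congr rfl; intro j _
      cases x j <;> simp
    rw [this]
  have h := slice_lemma a F (by rw [hsl]; exact hF)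
  rw [hsl] at h
  refine le_trans (le_of_eq ?_) h
  apply sum_congr rfl; intro w _
  apply sum_congr rfl; intro z _
  rw [filter_filter]
  by_cases hwz : w = z
  · subst hwz
    rw [if_neg (by simp)]
    simp
  · rw [if_pos hwz]

end Vale.Agent.Lib.P335F
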